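import Vale.Agent.H3.P034.Defs

namespace Vale.Agent.H3.P034

open Finset

variable {X : Type} [Fintype X] [DecidableEq X] {r : ℕ}

/-- `A_i = ⋃_{i' ≤ i} h (m i') \ W_{i'}`. -/
def AA (h : ℕ → Finset X) (m : Fin r → ℕ) (l : X → Fin (r + 1)) (i : Fin r) : Finset X :=
  univ.filter fun x => ∃ i' ≤ i, x ∈ h (m i') ∧ i'.castSucc < l x

theorem mem_AA {h : ℕ → Finset X} {m : Fin r → ℕ} {l : X → Fin (r + 1)} {i : Fin r} {x : X} :
    x ∈ AA h m l i ↔ ∃ i' ≤ i, x ∈ h (m i') ∧ i'.castSucc < l x := by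
  simp [AA]

theorem mem_out {S : Finset X} {l : X → Fin (r + 1)} {i : Fin r} {x : X} :
    x ∈ out S l i ↔ x ∈ S ∧ i.castSucc < l x := by
  simp [out]

theorem AA_mono (h : ℕ → Finset X) (m : Fin r → ℕ) (l : X → Fin (r + 1)) {i i' : Fin r}
    (hi : i ≤ i') : AA h m l i ⊆ AA h m l i' := by
  intro x hx
  rw [mem_AA] at hx ⊢
  obtain ⟨a, ha, hb⟩ := hx
  exact ⟨a, ha.trans hi, hb⟩

structure Legit {J : Type} (h : J → ℕ → Finset X) (M : ℕ) (ε : Fin r → ℝ) (l : X → Fin (r + 1))
    (H : Finset X) (j : J) (m : Fin r → ℕ) : Prop where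
  mono : Monotone m
  le : ∀ i, m i ≤ M
  sub : ∀ i, AA (h j) m l i ⊆ H
  cond : ∀ i m', m i < m' → m' ≤ M →
    ((out (h j m') l i ∪ AA (h j) m l i).card : ℝ) ≤ ε i * (h j m').card

def key (h : ℕ → Finset X) (l : X → Fin (r + 1)) (m : Fin r → ℕ) : ℕ :=
  ∑ i, m i + ∑ i, (AA h m l i).card

structure ZC {J : Type} (h : J → ℕ → Finset X) (M : ℕ) (ε : Fin r → ℝ) (l' : X → Fin (r + 1))
    (k : Fin r → ℕ) (j : J) (m : Fin r → ℕ) : Prop where
  mono : Monotone m
  le : ∀ i, m i ≤ M
  inside : ∀ i, ∀ x ∈ h j (m i), l' x ≤ i.castSucc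
  cond : ∀ i m', m i < m' → m' ≤ M →
    ((out (h j m') l' i).card : ℝ) + ∑ i' ∈ univ.filter (· ≤ i), (k i' : ℝ)
      ≤ ε i * (h j m').card

theorem dec {J : Type} {h : J → ℕ → Finset X} (hh : Chain h) {M : ℕ} {ε : Fin r → ℝ}
    {l : X → Fin (r + 1)} {H : Finset X} {j : J} {m : Fin r → ℕ} (hL : Legit h M ε l H j m)
    {i : Fin r} (hi : 0 < m i) (hlt : ∀ i' < i, m i' < m i)
    (hc : ((AA (h j) m l i).card : ℝ) ≤ ε i * (h j (m i)).card) :
    ∃ m', Legit h M ε l H j m' ∧ key (h j) l m' < key (h j) l m := by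
  classical
  set m' : Fin r → ℕ := Function.update m i (m i - 1) with hm'
  have hle : ∀ a, m' a ≤ m a := by
    intro a
    by_cases ha : a = i
    · subst ha; simp [hm']
    · simp [hm', Function.update_of_ne ha]
  have hAA : ∀ a, AA (h j) m' l a ⊆ AA (h j) m l a := by
    intro a x hx
    rw [mem_AA] at hx ⊢
    obtain ⟨b, hb, hx1, hx2⟩ := hx
    exact ⟨b, hb, hh.mono j (hle b) hx1, hx2⟩
  refine ⟨m', ⟨?_, ?_, ?_, ?_⟩, ?_⟩
  · intro a b hab
    by_cases hb : b = i
    · by_cases ha : a = i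
      · rw [ha, hb]
      · subst hb
        have : a < b := lt_of_le_of_ne hab ha
        have h1 := hlt a this
        simp only [hm', Function.update_of_ne ha, Function.update_self]
        omega
    · calc m' a ≤ m a := hle a
        _ ≤ m b := hL.mono hab
        _ = m' b := by simp [hm', Function.update_of_ne hb]
  · intro a; exact (hle a).trans (hL.le a)
  · intro a; exact (hAA a).trans (hL.sub a)
  · intro a m₁ h1 h2
    have hgen : m a < m₁ → ((out (h j m₁) l a ∪ AA (h j) m' l a).card : ℝ)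
        ≤ ε a * (h j m₁).card := by
      intro h3
      refine le_trans ?_ (hL.cond a m₁ h3 h2)
      exact_mod_cast Finset.card_le_card (Finset.union_subset_union_right (hAA a))
    by_cases ha : a = i
    · subst ha
      have h4 : m a ≤ m₁ := by
        simp only [hm', Function.update_self] at h1; omega
      rcases Nat.lt_or_ge (m a) m₁ with h5 | h5
      · exact hgen h5
      · have h6 : m₁ = m a := le_antisymm h5 h4
        rw [h6]
        refine le_trans ?_ hc
        have : out (h j (m a)) l a ∪ AA (h j) m' l a ⊆ AA (h j) m l a := by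
          refine Finset.union_subset ?_ (hAA a)
          intro x hx
          rw [mem_out] at hx
          rw [mem_AA]
          exact ⟨a, le_refl _, hx.1, hx.2⟩
        exact_mod_cast Finset.card_le_card this
    · refine hgen ?_
      simpa only [hm', Function.update_of_ne ha] using h1
  · unfold key
    have h1 : ∑ a, m' a < ∑ a, m a := by
      refine Finset.sum_lt_sum (fun a _ => hle a) ⟨i, mem_univ _, ?_⟩
      simp only [hm', Function.update_self]; omega
    have h2 : ∑ a, (AA (h j) m' l a).card ≤ ∑ a, (AA (h j) m l a).card :=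
      Finset.sum_le_sum fun a _ => Finset.card_le_card (hAA a)
    omega

/-- `t` is the fragment labelling of a minimal legit candidate. -/
structure Sel {J : Type} (h : J → ℕ → Finset X) (M : ℕ) (ε : Fin r → ℝ) (l : X → Fin (r + 1))
    (H : Finset X) (j : J) (m : Fin r → ℕ) (t : X → Option (Fin r)) : Prop where
  legit : Legit h M ε l H j m
  min : ∀ j' m', Legit h M ε l H j' m' → key (h j) l m ≤ key (h j') l m'
  lab : ∀ x i, t x = some i ↔ (x ∈ AA (h j) m l i ∧ ∀ i' < i, x ∉ AA (h j) m l i')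

theorem Sel.mem_iff {J : Type} {h : J → ℕ → Finset X} {M : ℕ} {ε : Fin r → ℝ}
    {l : X → Fin (r + 1)} {H : Finset X} {j : J} {m : Fin r → ℕ} {t : X → Option (Fin r)}
    (hS : Sel h M ε l H j m t) (x : X) (i : Fin r) :
    x ∈ AA (h j) m l i ↔ ∃ i' ≤ i, t x = some i' := by
  classical
  constructor
  · intro hx
    have hne : (univ.filter fun a : Fin r => x ∈ AA (h j) m l a).Nonempty :=
      ⟨i, by simp [hx]⟩
    refine ⟨Finset.min' _ hne, Finset.min'_le _ _ (by simp [hx]), ?_⟩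
    rw [hS.lab]
    refine ⟨?_, ?_⟩
    · have := Finset.min'_mem _ hne
      simpa using this
    · intro a ha hxa
      have := Finset.min'_le (univ.filter fun a : Fin r => x ∈ AA (h j) m l a) a (by simp [hxa])
      exact absurd ha (not_lt.mpr this)
  · rintro ⟨a, ha, hta⟩
    exact AA_mono _ _ _ ha ((hS.lab x a).1 hta).1

theorem Sel.card_AA {J : Type} {h : J → ℕ → Finset X} {M : ℕ} {ε : Fin r → ℝ}
    {l : X → Fin (r + 1)} {H : Finset X} {j : J} {m : Fin r → ℕ} {t : X → Option (Fin r)}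
    (hS : Sel h M ε l H j m t) (i : Fin r) :
    (AA (h j) m l i).card = ∑ i' ∈ univ.filter (· ≤ i), cnt t i' := by
  classical
  have h1 : AA (h j) m l i = (univ.filter (· ≤ i)).biUnion
      (fun i' => univ.filter fun x => t x = some i') := by
    ext x
    rw [hS.mem_iff]
    simp
  rw [h1, Finset.card_biUnion]
  · rfl
  · intro a _ b _ hab
    simp only [Finset.disjoint_left, Finset.mem_filter, Finset.mem_univ, true_and]
    intro x hx hx'
    rw [hx] at hx'
    exact hab (Option.some.inj hx')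

theorem Sel.out_lt {J : Type} {h : J → ℕ → Finset X} {M : ℕ} {ε : Fin r → ℝ}
    {l : X → Fin (r + 1)} {H : Finset X} {j : J} {m : Fin r → ℕ} {t : X → Option (Fin r)}
    (hS : Sel h M ε l H j m t) {x : X} {i : Fin r} (hx : t x = some i) :
    x ∈ h j (m i) ∧ i.castSucc < l x := by
  obtain ⟨h1, h2⟩ := (hS.lab x i).1 hx
  rw [mem_AA] at h1
  obtain ⟨a, ha, hxa, hla⟩ := h1
  rcases lt_or_eq_of_le ha with h3 | h3
  · exact absurd (mem_AA.2 ⟨a, le_refl _, hxa, hla⟩) (h2 a h3)
  · subst h3; exact ⟨hxa, hla⟩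

theorem Sel.ov_le {J : Type} {h : J → ℕ → Finset X} {M : ℕ} {ε : Fin r → ℝ}
    {l : X → Fin (r + 1)} {H : Finset X} {j : J} {m : Fin r → ℕ} {t : X → Option (Fin r)}
    (hS : Sel h M ε l H j m t) (x : X) (i : Fin r) :
    ov t l x ≤ i.castSucc ↔ (l x ≤ i.castSucc ∨ x ∈ AA (h j) m l i) := by
  rw [hS.mem_iff]
  rcases hx : t x with _ | a
  · simp [ov, hx]
  · have h1 := (hS.out_lt hx).2
    simp only [ov, hx, Option.elim]
    constructor
    · intro h2
      right
      exact ⟨a, Fin.castSucc_le_castSucc_iff.mp h2, rfl⟩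
    · rintro (h2 | ⟨b, hb, hb'⟩)
      · exact (h1.trans_le h2).le
      · rw [Option.some.inj hb']
        exact Fin.castSucc_le_castSucc_iff.mpr hb

theorem Sel.out_ov {J : Type} {h : J → ℕ → Finset X} {M : ℕ} {ε : Fin r → ℝ}
    {l : X → Fin (r + 1)} {H : Finset X} {j : J} {m : Fin r → ℕ} {t : X → Option (Fin r)}
    (hS : Sel h M ε l H j m t) (S : Finset X) (i : Fin r) :
    out S (ov t l) i = out S l i \ AA (h j) m l i := by
  ext x
  rw [mem_out, Finset.mem_sdiff, mem_out, ← not_le, hS.ov_le, ← not_le (a := l x)]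
  tauto

theorem Sel.zc {J : Type} {h : J → ℕ → Finset X} {M : ℕ} {ε : Fin r → ℝ}
    {l : X → Fin (r + 1)} {H : Finset X} {j : J} {m : Fin r → ℕ} {t : X → Option (Fin r)}
    (hS : Sel h M ε l H j m t) : ZC h M ε (ov t l) (cnt t) j m := by
  refine ⟨hS.legit.mono, hS.legit.le, ?_, ?_⟩
  · intro i x hx
    rw [hS.ov_le]
    rcases le_or_gt (l x) i.castSucc with h1 | h1
    · exact Or.inl h1
    · exact Or.inr (mem_AA.2 ⟨i, le_refl _, hx, h1⟩)
  · intro i m' h1 h2
    have h3 := hS.legit.cond i m' h1 h2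
    have h4 : (out (h j m') l i ∪ AA (h j) m l i).card
        = (out (h j m') (ov t l) i).card + (AA (h j) m l i).card := by
      rw [hS.out_ov, Finset.union_comm, ← Finset.union_sdiff_self_eq_union, Finset.union_comm,
        Finset.card_union_of_disjoint Finset.sdiff_disjoint]
    rw [h4, hS.card_AA] at h3
    push_cast at h3
    exact h3

theorem Sel.canon {J : Type} {h : J → ℕ → Finset X} (hh : Chain h) {M : ℕ} {ε : Fin r → ℝ}
    {l : X → Fin (r + 1)} {H : Finset X} {j : J} {m : Fin r → ℕ} {t : X → Option (Fin r)}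
    (hS : Sel h M ε l H j m t) {j₂ : J} {m₂ : Fin r → ℕ}
    (hZ : ZC h M ε (ov t l) (cnt t) j₂ m₂)
    (hmin : ∀ j' m', ZC h M ε (ov t l) (cnt t) j' m' → ∑ i, m₂ i ≤ ∑ i, m' i)
    {x : X} {i : Fin r} (hx : t x = some i) :
    x ∈ h j₂ (m₂ i) ∧
      ε i * ((h j₂ (m₂ i)).card : ℝ) ≤ ∑ i' ∈ univ.filter (· ≤ i), (cnt t i' : ℝ) := by
  have hsub : ∀ a, AA (h j₂) m₂ l a ⊆ AA (h j) m l a := by
    intro a y hy
    rw [mem_AA] at hy
    obtain ⟨b, hb, hy1, hy2⟩ := hy
    have h1 := (hS.ov_le y b).1 (hZ.inside b y hy1)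
    rcases h1 with h1 | h1
    · exact absurd hy2 (not_lt.mpr h1)
    · exact AA_mono _ _ _ hb h1
  have hL : Legit h M ε l H j₂ m₂ := by
    refine ⟨hZ.mono, hZ.le, fun a => (hsub a).trans (hS.legit.sub a), ?_⟩
    intro a m' h1 h2
    have h3 := hZ.cond a m' h1 h2
    refine le_trans ?_ h3
    have h4 : out (h j₂ m') l a ∪ AA (h j₂) m₂ l a
        ⊆ out (h j₂ m') (ov t l) a ∪ AA (h j) m l a := by
      rw [hS.out_ov]
      intro y hy
      rw [Finset.mem_union] at hy
      rw [Finset.mem_union, Finset.mem_sdiff]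
      rcases hy with hy | hy
      · by_cases hy' : y ∈ AA (h j) m l a
        · exact Or.inr hy'
        · exact Or.inl ⟨hy, hy'⟩
      · exact Or.inr (hsub a hy)
    have h5 := (Finset.card_le_card h4).trans (Finset.card_union_le _ _)
    rw [hS.card_AA] at h5
    exact_mod_cast h5
  have hk1 : key (h j) l m ≤ key (h j₂) l m₂ := hS.min _ _ hL
  have hk2 : ∑ i, m₂ i ≤ ∑ i, m i := hmin _ _ hS.zc
  have hk3 : ∑ a, (AA (h j₂) m₂ l a).card ≤ ∑ a, (AA (h j) m l a).card :=
    Finset.sum_le_sum fun a _ => Finset.card_le_card (hsub a)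
  have hk4 : ∑ a, (AA (h j₂) m₂ l a).card = ∑ a, (AA (h j) m l a).card := by
    unfold key at hk1; omega
  have hkey : key (h j₂) l m₂ = key (h j) l m := by
    unfold key at hk1 ⊢; omega
  have heq : ∀ a, AA (h j₂) m₂ l a = AA (h j) m l a := by
    intro a
    have h1 := (Finset.sum_eq_sum_iff_of_le
      (fun a _ => Finset.card_le_card (hsub a))).1 hk4 a (mem_univ a)
    exact Finset.eq_of_subset_of_card_le (hsub a) h1.ge
  obtain ⟨hx1, hx2⟩ := (hS.lab x i).1 hx
  have hx3 : x ∈ h j₂ (m₂ i) ∧ i.castSucc < l x := by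
    have h1 := hx1
    rw [← heq, mem_AA] at h1
    obtain ⟨a, ha, hxa, hla⟩ := h1
    rcases lt_or_eq_of_le ha with h3 | h3
    · exact absurd (mem_AA.2 ⟨a, le_refl _, hxa, hla⟩) (by rw [heq]; exact hx2 a h3)
    · subst h3; exact ⟨hxa, hla⟩
  refine ⟨hx3.1, ?_⟩
  by_contra hcon
  push Not at hcon
  have hlt : ∀ i' < i, m₂ i' < m₂ i := by
    intro a ha
    by_contra h1
    push Not at h1
    have h2 : x ∈ h j₂ (m₂ a) := hh.mono j₂ h1 hx3.1
    have h3 : a.castSucc < l x := lt_trans (Fin.castSucc_lt_castSucc_iff.mpr ha) hx3.2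
    exact hx2 a ha (by rw [← heq]; exact mem_AA.2 ⟨a, le_refl _, h2, h3⟩)
  have hpos : 0 < m₂ i := by
    rcases Nat.eq_zero_or_pos (m₂ i) with h1 | h1
    · have h2 := hx3.1
      rw [h1, hh.zero] at h2
      simp at h2
    · exact h1
  obtain ⟨m', hm1, hm2⟩ := dec hh hL hpos hlt (by
    rw [heq, hS.card_AA]
    push_cast
    exact hcon.le)
  have := hS.min _ _ hm1
  omega

theorem exists_min_nat {α : Type*} (P : α → Prop) (f : α → ℕ) (h : ∃ a, P a) :
    ∃ a, P a ∧ ∀ b, P b → f a ≤ f b := by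
  classical
  have h1 : ∃ n, ∃ a, P a ∧ f a = n := by
    obtain ⟨a, ha⟩ := h; exact ⟨f a, a, ha, rfl⟩
  obtain ⟨a, ha, hfa⟩ := Nat.find_spec h1
  refine ⟨a, ha, fun b hb => ?_⟩
  rw [hfa]
  exact Nat.find_min' h1 ⟨b, hb, rfl⟩

theorem exists_sel {J : Type} (h : J → ℕ → Finset X) (M : ℕ) (ε : Fin r → ℝ)
    (l : X → Fin (r + 1)) (j₀ : J) : ∃ j m t, Sel h M ε l (h j₀ M) j m t := by
  classical
  have h0 : ∃ a : J × (Fin r → ℕ), Legit h M ε l (h j₀ M) a.1 a.2 := by
    refine ⟨(j₀, fun _ => M), ⟨monotone_const, fun _ => le_refl _, ?_, ?_⟩⟩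
    · intro i x hx
      rw [mem_AA] at hx
      obtain ⟨_, _, hx, _⟩ := hx
      exact hx
    · intro i m' h1 h2
      exact absurd h1 (not_lt.mpr h2)
  obtain ⟨⟨j, m⟩, ha, hb⟩ := exists_min_nat _ (fun a : J × (Fin r → ℕ) => key (h a.1) l a.2) h0
  refine ⟨j, m, fun x => if hx : (univ.filter fun a : Fin r => x ∈ AA (h j) m l a).Nonempty then
    some (Finset.min' _ hx) else none, ha, fun j' m' h1 => hb (j', m') h1, ?_⟩
  intro x i
  constructor
  · intro h1
    split_ifs at h1 with hx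
    have h2 := Option.some.inj h1
    have h3 := Finset.min'_mem _ hx
    rw [h2] at h3
    refine ⟨by simpa using h3, ?_⟩
    intro a ha' hxa
    have h4 := Finset.min'_le (univ.filter fun a : Fin r => x ∈ AA (h j) m l a) a (by simp [hxa])
    rw [h2] at h4
    exact absurd ha' (not_lt.mpr h4)
  · rintro ⟨h1, h2⟩
    have hx : (univ.filter fun a : Fin r => x ∈ AA (h j) m l a).Nonempty := ⟨i, by simp [h1]⟩
    rw [dif_pos hx]
    congr 1
    refine le_antisymm (Finset.min'_le _ _ (by simp [h1])) ?_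
    by_contra h3
    push Not at h3
    have h4 := Finset.min'_mem _ hx
    exact h2 _ h3 (by simpa using h4)

/-- Row A (helper3): the minimal fragment lemma. -/
theorem core {J : Type} (h : J → ℕ → Finset X) (hh : Chain h) (M : ℕ) (ε : Fin r → ℝ)
    (hε : ∀ i, 0 < ε i) :
    ∃ B : (X → Fin (r + 1)) → (Fin r → ℕ) → Fin r → Finset X,
      (∀ l' k i, ε i * ((B l' k i).card : ℝ) ≤ ∑ i' ∈ univ.filter (· ≤ i), (k i' : ℝ)) ∧
      ∀ l, Bad h M ε l → ∀ j, ∃ t : X → Option (Fin r), (∃ x, t x ≠ none) ∧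
        (∀ x, t x ≠ none → x ∈ h j M) ∧
        ∀ x i, t x = some i → x ∈ B (ov t l) (cnt t) i := by
  classical
  have hB : ∀ (l' : X → Fin (r + 1)) (k : Fin r → ℕ), ∃ B : Fin r → Finset X,
      (∀ i, ε i * ((B i).card : ℝ) ≤ ∑ i' ∈ univ.filter (· ≤ i), (k i' : ℝ)) ∧
      ∀ l H j m t, Sel h M ε l H j m t → ov t l = l' → cnt t = k →
        ∀ x i, t x = some i → x ∈ B i := by
    intro l' k
    by_cases hZ : ∃ a : J × (Fin r → ℕ), ZC h M ε l' k a.1 a.2
    · obtain ⟨⟨j₂, m₂⟩, ha, hb⟩ := exists_min_nat _ (fun a : J × (Fin r → ℕ) => ∑ i, a.2 i) hZ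
      refine ⟨fun i => if ε i * ((h j₂ (m₂ i)).card : ℝ) ≤ ∑ i' ∈ univ.filter (· ≤ i), (k i' : ℝ)
        then h j₂ (m₂ i) else ∅, ?_, ?_⟩
      · intro i
        dsimp only
        split_ifs with h1
        · exact h1
        · simp only [Finset.card_empty, Nat.cast_zero, mul_zero]
          exact Finset.sum_nonneg fun _ _ => Nat.cast_nonneg _
      · intro l H j m t hS h1 h2 x i hx
        subst h1 h2
        obtain ⟨h3, h4⟩ := hS.canon hh ha (fun j' m' h5 => hb (j', m') h5) hx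
        dsimp only
        rw [if_pos h4]
        exact h3
    · refine ⟨fun _ => ∅, ?_, ?_⟩
      · intro i
        simp only [Finset.card_empty, Nat.cast_zero, mul_zero]
        exact Finset.sum_nonneg fun _ _ => Nat.cast_nonneg _
      · intro l H j m t hS h1 h2
        subst h1 h2
        exact absurd ⟨(j, m), hS.zc⟩ hZ
  choose B hB1 hB2 using hB
  refine ⟨B, hB1, ?_⟩
  intro l hbad j₀
  obtain ⟨j, m, t, hS⟩ := exists_sel h M ε l j₀
  refine ⟨t, ?_, ?_, fun x i hx => hB2 _ _ _ _ _ _ _ hS rfl rfl x i hx⟩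
  · by_contra hcon
    push Not at hcon
    have hA : ∀ i, AA (h j) m l i = ∅ := by
      intro i
      rw [Finset.eq_empty_iff_forall_notMem]
      intro x hx
      obtain ⟨a, _, ha⟩ := (hS.mem_iff x i).1 hx
      rw [hcon x] at ha
      exact absurd ha (by simp)
    have hm : ∀ i, m i = 0 := by
      by_contra h1
      push Not at h1
      have hne : (univ.filter fun i : Fin r => m i ≠ 0).Nonempty := by
        obtain ⟨i, hi⟩ := h1
        exact ⟨i, by simp [hi]⟩
      set i := Finset.min' _ hne with hi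
      have h2 : m i ≠ 0 := by
        have := Finset.min'_mem _ hne
        simpa using this
      have h3 : ∀ i' < i, m i' < m i := by
        intro a ha
        have h4 : m a = 0 := by
          by_contra h5
          have := Finset.min'_le (univ.filter fun i : Fin r => m i ≠ 0) a (by simp [h5])
          exact absurd ha (not_lt.mpr this)
        omega
      obtain ⟨m', hm1, hm2⟩ := dec hh hS.legit (Nat.pos_of_ne_zero h2) h3 (by
        rw [hA i]
        simp only [Finset.card_empty, Nat.cast_zero]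
        exact mul_nonneg (hε i).le (Nat.cast_nonneg _))
      have := hS.min _ _ hm1
      omega
    apply hbad
    refine ⟨j, fun i m' h1 h2 => ?_⟩
    have h3 := hS.legit.cond i m' (by rw [hm i]; omega) h2
    refine le_trans ?_ h3
    exact_mod_cast Finset.card_le_card Finset.subset_union_left
  · intro x hx
    obtain ⟨i, hi⟩ := Option.ne_none_iff_exists'.mp hx
    exact hS.legit.sub i ((hS.lab x i).1 hi).1

end Vale.Agent.H3.P034
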