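import Vale.Agent.H3.P034.Defs
import Vale.Agent.H18.P034.Count

namespace Vale.Agent.H3.P034

open Finset

variable {X : Type} [Fintype X] [DecidableEq X] {r : ℕ}

theorem count_aux1 {ι : Type} [DecidableEq ι] (s : Finset ι) (ρ : ι → ℝ) (h0 : ∀ i, 0 ≤ ρ i) (h1 : ∀ i, ρ i ≤ 1) :
    1 - ∑ i ∈ s, ρ i ≤ ∏ i ∈ s, (1 - ρ i) ∧ 0 ≤ ∏ i ∈ s, (1 - ρ i) ∧ ∏ i ∈ s, (1 - ρ i) ≤ 1 := by
  induction s using Finset.induction_on with
  | empty => simp
  | insert a s ha ih =>
    rw [Finset.sum_insert ha, Finset.prod_insert ha]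
    obtain ⟨ih1, ih2, ih3⟩ := ih
    have ha0 := h0 a
    have ha1 := h1 a
    refine ⟨?_, mul_nonneg (by linarith) ih2, ?_⟩
    · nlinarith
    · nlinarith

/-- Row B: counting fragments.  Proof: group `t` by `k = cnt t` (each `k i ≤ card X`); for given `k`,
`t` is determined by the sets `T_i = {t = some i} ⊆ B k i` of size `k i`, so there are at most
`∏ binom(|B k i|, k i) ≤ ∏ x_i^{-k_i} (1+x_i)^{|B k i|} ≤ ∏ x_i^{-k_i} exp(x_i |B k i|)`, with
`x_i = ε_i 2^{-i-1}`: `∏ exp(2^{-i-1} ∑_{i' ≤ i} k i') ≤ exp (∑ k)`.  So the sum is at most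
`∑_{k ≠ 0} ∏ (e 2^{i+1}/(ε_i κ_i))^{k_i} ≤ ∏ 1/(1-ρ_i) - 1`, `ρ_i ≤ 2^{-i-1}/16·(e/3)`. -/
theorem count (ε κ : Fin r → ℝ) (hε : ∀ i, 0 < ε i) (hκ : ∀ i, 0 < κ i)
    (hεκ : ∀ i : Fin r, 192 * 4 ^ (i : ℕ) ≤ ε i * κ i)
    (B : (Fin r → ℕ) → Fin r → Finset X)
    (hB : ∀ k i, ε i * ((B k i).card : ℝ) ≤ ∑ i' ∈ univ.filter (· ≤ i), (k i' : ℝ))
    (T : Finset (X → Option (Fin r)))
    (hT : ∀ t ∈ T, (∃ x, t x ≠ none) ∧ ∀ x i, t x = some i → x ∈ B (cnt t) i) :
    ∑ t ∈ T, ∏ x, wt κ (t x) ≤ 1 / 8 := by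
  classical
  set ρ : Fin r → ℝ := fun i => Real.exp 1 * 2 ^ ((i : ℕ) + 1) / (ε i * κ i) with hρdef
  have hρ0 : ∀ i, 0 ≤ ρ i := by
    intro i
    have := hε i
    have := hκ i
    simp only [hρdef]
    positivity
  have he : Real.exp 1 < 2.7182818286 := Real.exp_one_lt_d9
  have hρb : ∀ i : Fin r, ρ i ≤ (1 / 32) * (1 / 2) ^ (i : ℕ) := by
    intro i
    simp only [hρdef]
    have h1 := hεκ i
    have hpos : 0 < ε i * κ i := mul_pos (hε i) (hκ i)
    rw [div_le_iff₀ hpos]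
    have h2 : (1 / 32 : ℝ) * (1 / 2) ^ (i : ℕ) * (192 * 4 ^ (i : ℕ)) ≤
        1 / 32 * (1 / 2) ^ (i : ℕ) * (ε i * κ i) :=
      mul_le_mul_of_nonneg_left h1 (by positivity)
    refine le_trans ?_ h2
    have h3 : (1 / 32 : ℝ) * (1 / 2) ^ (i : ℕ) * (192 * 4 ^ (i : ℕ)) = 6 * 2 ^ (i : ℕ) := by
      have : (1 / 2 : ℝ) ^ (i : ℕ) * 4 ^ (i : ℕ) = 2 ^ (i : ℕ) := by
        rw [← mul_pow]; norm_num
      calc (1 / 32 : ℝ) * (1 / 2) ^ (i : ℕ) * (192 * 4 ^ (i : ℕ)) =
          6 * ((1 / 2 : ℝ) ^ (i : ℕ) * 4 ^ (i : ℕ)) := by ring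
        _ = _ := by rw [this]
    rw [h3, pow_succ]
    have h4 : (0 : ℝ) < 2 ^ (i : ℕ) := by positivity
    nlinarith
  have hρ1 : ∀ i, ρ i < 1 := by
    intro i
    have h1 := hρb i
    have h2 : (1 / 2 : ℝ) ^ (i : ℕ) ≤ 1 := pow_le_one₀ (by norm_num) (by norm_num)
    linarith
  have hsum : ∑ i, ρ i ≤ 1 / 16 := by
    refine (Finset.sum_le_sum fun i _ => hρb i).trans ?_
    rw [← Finset.mul_sum]
    have h7 : ∑ i : Fin r, (1 / 2 : ℝ) ^ (i : ℕ) ≤ 2 := by
      rw [Fin.sum_univ_eq_sum_range (fun i => (1 / 2 : ℝ) ^ i) r]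
      exact sum_geometric_two_le r
    linarith
  have hprod : ∏ i : Fin r, (1 - ρ i)⁻¹ - 1 ≤ 1 / 8 := by
    obtain ⟨h1, h2, h3⟩ := count_aux1 Finset.univ ρ hρ0 (fun i => (hρ1 i).le)
    rw [Finset.prod_inv_distrib]
    have h4 : (15 / 16 : ℝ) ≤ ∏ i : Fin r, (1 - ρ i) := by linarith
    have h5 : (∏ i : Fin r, (1 - ρ i))⁻¹ ≤ (15 / 16 : ℝ)⁻¹ := inv_anti₀ (by norm_num) h4
    norm_num at h5 ⊢
    linarith
  refine le_trans ?_ hprod
  -- the count vector
  have hkle : ∀ t : X → Option (Fin r), ∀ j, cnt t j ≤ Fintype.card X := by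
    intro t j
    exact Finset.card_le_univ _
  have hcl : ∀ t : X → Option (Fin r), ∀ j, cnt t j < Fintype.card X + 1 := fun t j =>
    Nat.lt_succ_of_le (hkle t j)
  set kf : (X → Option (Fin r)) → (Fin r → Fin (Fintype.card X + 1)) :=
    fun t j => ⟨cnt t j, hcl t j⟩ with hkf
  have hw : ∀ t ∈ T, ∏ x, wt κ (t x) = ∏ i, (κ i)⁻¹ ^ (cnt t i) := by
    intro t _
    have h1 : ∏ x, wt κ (t x) =
        (∏ x ∈ univ.filter (fun x => t x = none), wt κ (t x)) *
          ∏ i, ∏ x ∈ univ.filter (fun x => t x = some i), wt κ (t x) := by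
      rw [← Finset.prod_fiberwise_of_maps_to (s := univ)
        (t := (Finset.univ : Finset (Option (Fin r)))) (g := t)
        (fun _ _ => Finset.mem_univ _)]
      rw [Fintype.prod_option]
    rw [h1]
    have h2 : ∏ x ∈ univ.filter (fun x => t x = none), wt κ (t x) = 1 := by
      refine Finset.prod_eq_one fun x hx => ?_
      rw [(Finset.mem_filter.1 hx).2]
      rfl
    rw [h2, one_mul]
    refine Finset.prod_congr rfl fun i _ => ?_
    rw [Finset.prod_congr rfl (g := fun _ => (κ i)⁻¹)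
      (fun x hx => by rw [(Finset.mem_filter.1 hx).2]; rfl), Finset.prod_const]
    rfl
  rw [Finset.sum_congr rfl hw]
  have hmaps : ∀ t ∈ T, kf t ∈ (Finset.univ : Finset (Fin r → Fin (Fintype.card X + 1))).erase
      (fun _ => 0) := by
    intro t ht
    refine Finset.mem_erase.2 ⟨?_, Finset.mem_univ _⟩
    intro h
    obtain ⟨x, hx⟩ := (hT t ht).1
    obtain ⟨i, hi⟩ := Option.ne_none_iff_exists'.1 hx
    have h1 := congrFun h i
    have h2 : cnt t i = 0 := by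
      have := congrArg Fin.val h1
      simpa [hkf] using this
    simp only [cnt, Finset.card_eq_zero] at h2
    have : x ∈ univ.filter (fun y => t y = some i) := Finset.mem_filter.2 ⟨mem_univ _, hi⟩
    rw [h2] at this
    simp at this
  rw [← Finset.sum_fiberwise_of_maps_to hmaps]
  refine le_trans (Finset.sum_le_sum fun k hk => ?_)
    (Vale.Agent.H18.P034.geom_vec ρ hρ0 hρ1 (Fintype.card X))
  set kk : Fin r → ℕ := fun i => (k i : ℕ) with hkk
  have hkvk : ∀ t ∈ T.filter (fun t => kf t = k), cnt t = kk := by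
    intro t ht
    have := (Finset.mem_filter.1 ht).2
    funext i
    rw [hkk, ← this]
  have h1 : ∑ t ∈ T.filter (fun t => kf t = k), ∏ i, (κ i)⁻¹ ^ (cnt t i) =
      ((T.filter (fun t => kf t = k)).card : ℝ) * ∏ i, (κ i)⁻¹ ^ (kk i) := by
    rw [Finset.sum_congr rfl (g := fun _ => ∏ i, (κ i)⁻¹ ^ (kk i))
      (fun t ht => by rw [hkvk t ht]), Finset.sum_const, nsmul_eq_mul]
  rw [h1]
  have hcard : (T.filter (fun t => kf t = k)).card ≤
      ∏ i, ((B kk i).card).choose (kk i) := by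
    have h2 : (Fintype.piFinset fun i => Finset.powersetCard (kk i) (B kk i)).card =
        ∏ i, ((B kk i).card).choose (kk i) := by
      rw [Fintype.card_piFinset]
      exact Finset.prod_congr rfl fun i _ => Finset.card_powersetCard _ _
    rw [← h2]
    refine Finset.card_le_card_of_injOn (fun t i => univ.filter (fun x => t x = some i)) ?_ ?_
    · intro t ht
      have ht' : t ∈ T.filter (fun t => kf t = k) := ht
      have hk' := hkvk t ht'
      simp only [Finset.mem_coe, Fintype.mem_piFinset]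
      intro i
      rw [Finset.mem_powersetCard]
      refine ⟨?_, congrFun hk' i⟩
      intro x hx
      have h3 := (hT t (Finset.mem_filter.1 ht').1).2 x i (Finset.mem_filter.1 hx).2
      rwa [hk'] at h3
    · intro t _ t' _ h
      funext x
      have h5 : ∀ i, t x = some i ↔ t' x = some i := by
        intro i
        have h3 := congrFun h i
        simp only at h3
        have h4 : x ∈ univ.filter (fun y => t y = some i) ↔ x ∈ univ.filter (fun y => t' y = some i) := by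
          rw [h3]
        simpa using h4
      exact Option.ext h5
  have hN : ∀ i, kk i ≠ 0 → (((B kk i).card : ℕ) : ℝ) * ε i ≤
      ∑ j ∈ Finset.univ.filter (fun j => j ≤ i), (kk j : ℝ) := by
    intro i _
    rw [mul_comm]
    exact hB kk i
  have h5 := Vale.Agent.H18.P034.term_bound ε κ hε hκ kk (fun i => (B kk i).card) hN
  have h6 : 0 ≤ ∏ i, (κ i)⁻¹ ^ (kk i) := by
    refine Finset.prod_nonneg fun i _ => ?_
    have := hκ i
    positivity
  calc ((T.filter (fun t => kf t = k)).card : ℝ) * ∏ i, (κ i)⁻¹ ^ (kk i)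
      ≤ ((∏ i, ((B kk i).card).choose (kk i) : ℕ) : ℝ) * ∏ i, (κ i)⁻¹ ^ (kk i) :=
        mul_le_mul_of_nonneg_right (by exact_mod_cast hcard) h6
    _ = ∏ i, ((κ i)⁻¹ ^ (kk i) * (((B kk i).card).choose (kk i) : ℝ)) := by
        rw [Finset.prod_mul_distrib, Nat.cast_prod, mul_comm]
    _ ≤ _ := h5

end Vale.Agent.H3.P034
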