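import Vale.Agent.H3.P034.Defs

namespace Vale.Agent.H3.P034

open Finset

variable {X : Type} [Fintype X] [DecidableEq X] {r : ℕ}

/-- the sum over the fibre of `ov t` above a consistent labelling -/
theorem change_fibre (p : Fin (r + 1) → ℝ) (hp1 : ∑ i, p i = 1) (t : X → Option (Fin r))
    (l' : X → Fin (r + 1)) (hc : ∀ x i, t x = some i → l' x = i.castSucc) :
    ∑ l ∈ (univ : Finset (X → Fin (r + 1))).filter (fun l => ov t l = l'), ∏ x, p (l x)
      = ∏ x, (if t x = none then p (l' x) else 1) := by
  have h1 : (univ : Finset (X → Fin (r + 1))).filter (fun l => ov t l = l')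
      = Fintype.piFinset (fun x => if t x = none then ({l' x} : Finset (Fin (r + 1))) else univ) := by
    ext l
    simp only [mem_filter, mem_univ, true_and, Fintype.mem_piFinset]
    constructor
    · intro h x
      split_ifs with hx
      · rw [mem_singleton, ← h]
        simp [ov, hx]
      · exact mem_univ _
    · intro h
      funext x
      have hx := h x
      unfold ov
      cases hxt : t x with
      | none =>
        rw [if_pos hxt, mem_singleton] at hx
        simpa using hx
      | some i =>
        simp only [Option.elim_some]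
        exact (hc x i hxt).symm
  rw [h1, ← Finset.prod_univ_sum]
  refine Finset.prod_congr rfl fun x _ => ?_
  split_ifs
  · rw [Finset.sum_singleton]
  · exact hp1

/-- Row C: change of measure.  Proof: for fixed `t`, group the labellings `l` by `l' = ov t l`
(which equals `t` on the support `T` of `t`, and `l` off `T`); the sum of `∏ p (l x)` over the fibre of
`l'` is `∏_{x ∉ T} p (l' x)` (as `∑ p = 1`), and `q^|T| ∏_{x∉T} p(l' x) = (∏ p (l' x)) ∏_{x∈T} q/p(t x)`
with `q / p (castSucc i) = 1/κ i`. -/
theorem change (q : ℝ) (hq : 0 < q) (κ : Fin r → ℝ) (hκ : ∀ i, 0 < κ i) (p : Fin (r + 1) → ℝ)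
    (hp0 : ∀ i, 0 ≤ p i) (hp1 : ∑ i, p i = 1) (hp : ∀ i : Fin r, p i.castSucc = κ i * q)
    (G : (X → Option (Fin r)) → (X → Fin (r + 1)) → ℝ) (hG : ∀ t l, 0 ≤ G t l) :
    ∑ l : X → Fin (r + 1), (∏ x, p (l x)) * ∑ t, G t (ov t l) * q ^ size t
      ≤ ∑ l : X → Fin (r + 1), (∏ x, p (l x)) * ∑ t, G t l * ∏ x, wt κ (t x) := by
  have hwt : ∀ o : Option (Fin r), 0 ≤ wt κ o := by
    intro o
    cases o with
    | none => simp [wt]
    | some i => simp only [wt, Option.elim_some]; exact (inv_pos.mpr (hκ i)).le
  simp_rw [Finset.mul_sum]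
  rw [Finset.sum_comm, Finset.sum_comm (γ := X → Fin (r + 1))]
  refine Finset.sum_le_sum fun t _ => ?_
  rw [← Finset.sum_fiberwise (univ : Finset (X → Fin (r + 1))) (fun l => ov t l)]
  refine Finset.sum_le_sum fun l' _ => ?_
  have h1 : ∑ l ∈ (univ : Finset (X → Fin (r + 1))).filter (fun l => ov t l = l'),
      (∏ x, p (l x)) * (G t (ov t l) * q ^ size t)
      = (∑ l ∈ (univ : Finset (X → Fin (r + 1))).filter (fun l => ov t l = l'), ∏ x, p (l x))
        * (G t l' * q ^ size t) := by
    rw [Finset.sum_mul]
    refine Finset.sum_congr rfl fun l hl => ?_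
    rw [(mem_filter.mp hl).2]
  rw [h1]
  by_cases hc : ∀ x i, t x = some i → l' x = i.castSucc
  · rw [change_fibre p hp1 t l' hc]
    have h2 : q ^ size t * ∏ x, (if t x = none then p (l' x) else 1)
        = (∏ x, p (l' x)) * ∏ x, wt κ (t x) := by
      have h3 : q ^ size t = ∏ x, (if t x = none then 1 else q) := by
        unfold size
        rw [Finset.prod_ite, Finset.prod_const_one, one_mul, Finset.prod_const]
      rw [h3, ← Finset.prod_mul_distrib, ← Finset.prod_mul_distrib]
      refine Finset.prod_congr rfl fun x _ => ?_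
      cases hxt : t x with
      | none => simp [wt]
      | some i =>
        rw [hc x i hxt, hp i]
        simp only [wt, Option.elim_some, reduceCtorEq, if_false]
        have := (hκ i).ne'
        field_simp
    calc (∏ x, (if t x = none then p (l' x) else 1)) * (G t l' * q ^ size t)
        = G t l' * (q ^ size t * ∏ x, (if t x = none then p (l' x) else 1)) := by ring
      _ = (∏ x, p (l' x)) * (G t l' * ∏ x, wt κ (t x)) := by rw [h2]; ring
      _ ≤ _ := le_refl _
  · have hempty : (univ : Finset (X → Fin (r + 1))).filter (fun l => ov t l = l') = ∅ := by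
      rw [Finset.filter_eq_empty_iff]
      intro l _ h
      apply hc
      intro x i hx
      rw [← h]
      simp [ov, hx]
    rw [hempty, Finset.sum_empty, zero_mul]
    exact mul_nonneg (Finset.prod_nonneg fun x _ => hp0 _)
      (mul_nonneg (hG t l') (Finset.prod_nonneg fun x _ => hwt _))

end Vale.Agent.H3.P034
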