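import Vale.Agent.H3.P034.A
import Vale.Agent.H3.P034.B
import Vale.Agent.H3.P034.C

namespace Vale.Agent.H3.P034

open Finset

variable {X : Type} [Fintype X] [DecidableEq X] {r : ℕ}

theorem sum_prod_label {n : ℕ} (p : Fin n → ℝ) (hp1 : ∑ i, p i = 1) :
    ∑ l : X → Fin n, ∏ x, p (l x) = 1 := by
  have h := Finset.prod_univ_sum (fun _ : X => (univ : Finset (Fin n))) (fun _ i => p i)
  rw [Fintype.piFinset_univ] at h
  rw [← h, hp1, prod_const_one]

open Classical in
/-- Row D (helper29): simultaneous selector theorem (from A, B, C). -/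
theorem selector {J : Type} (h : J → ℕ → Finset X) (hh : Chain h) (M : ℕ)
    (q : ℝ) (hq : 0 < q) (ε κ : Fin r → ℝ) (hε : ∀ i, 0 < ε i) (hκ : ∀ i, 0 < κ i)
    (hεκ : ∀ i : Fin r, 192 * 4 ^ (i : ℕ) ≤ ε i * κ i) (p : Fin (r + 1) → ℝ)
    (hp0 : ∀ i, 0 ≤ p i) (hp1 : ∑ i, p i = 1) (hp : ∀ i : Fin r, p i.castSucc = κ i * q)
    (hns : ∀ G : Finset (Finset X), (∀ j, ∃ S ∈ G, S ⊆ h j M) → 1 / 2 < ∑ S ∈ G, q ^ S.card) :
    ∑ l ∈ (univ : Finset (X → Fin (r + 1))).filter (fun l => Bad h M ε l), ∏ x, p (l x) ≤ 1 / 4 := by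
  obtain ⟨B, hB, hcore⟩ := core h hh M ε hε
  set Q : (X → Option (Fin r)) → (X → Fin (r + 1)) → Prop := fun t l =>
    (∃ x, t x ≠ none) ∧ ∀ x i, t x = some i → x ∈ B l (cnt t) i with hQ
  set G : (X → Option (Fin r)) → (X → Fin (r + 1)) → ℝ := fun t l => if Q t l then 1 else 0
    with hG
  have hG0 : ∀ t l, 0 ≤ G t l := by
    intro t l; simp only [hG]; split_ifs <;> norm_num
  have hP0 : ∀ l : X → Fin (r + 1), 0 ≤ ∏ x, p (l x) := fun l => prod_nonneg fun x _ => hp0 _
  have hbad : ∀ l, Bad h M ε l → 1 / 2 ≤ ∑ t, G t (ov t l) * q ^ size t := by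
    intro l hl
    set I : Finset (X → Option (Fin r)) := univ.filter (fun t => Q t (ov t l)) with hI
    have hcov := hns (I.image (fun t => univ.filter (fun x => t x ≠ none))) (by
      intro j
      obtain ⟨t, ht1, ht2, ht3⟩ := hcore l hl j
      refine ⟨univ.filter (fun x => t x ≠ none), mem_image_of_mem _ ?_, ?_⟩
      · rw [hI, mem_filter]; exact ⟨mem_univ _, ht1, ht3⟩
      · intro x hx
        rw [mem_filter] at hx
        exact ht2 x hx.2)
    have h1 : ∑ S ∈ I.image (fun t => univ.filter (fun x => t x ≠ none)), q ^ S.card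
        ≤ ∑ t ∈ I, q ^ size t := by
      refine le_trans (sum_image_le_of_nonneg ?_) (le_of_eq rfl)
      intro S _
      positivity
    have h2 : ∑ t ∈ I, q ^ size t = ∑ t, G t (ov t l) * q ^ size t := by
      rw [hI, sum_filter]
      refine sum_congr rfl (fun t _ => ?_)
      simp only [hG]
      split_ifs <;> simp
    linarith
  have hcount : ∀ l : X → Fin (r + 1), ∑ t, G t l * ∏ x, wt κ (t x) ≤ 1 / 8 := by
    intro l
    have h1 := count ε κ hε hκ hεκ (B l) (hB l) (univ.filter (fun t => Q t l)) (by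
      intro t ht
      rw [mem_filter] at ht
      exact ht.2)
    refine le_trans (le_of_eq ?_) h1
    rw [sum_filter]
    refine sum_congr rfl (fun t _ => ?_)
    simp only [hG]
    split_ifs <;> simp
  have h1 : 1 / 2 * ∑ l ∈ (univ : Finset (X → Fin (r + 1))).filter (fun l => Bad h M ε l),
      ∏ x, p (l x) ≤ ∑ l : X → Fin (r + 1), (∏ x, p (l x)) * ∑ t, G t (ov t l) * q ^ size t := by
    rw [mul_sum]
    refine le_trans (sum_le_sum (fun l hl => ?_))
      (sum_le_sum_of_subset_of_nonneg (filter_subset _ _) (fun l _ _ => ?_))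
    · rw [mem_filter] at hl
      rw [mul_comm]
      exact mul_le_mul_of_nonneg_left (hbad l hl.2) (hP0 l)
    · exact mul_nonneg (hP0 l) (sum_nonneg fun t _ => mul_nonneg (hG0 _ _) (by positivity))
  have h2 := change q hq κ hκ p hp0 hp1 hp G hG0
  have h3 : ∑ l : X → Fin (r + 1), (∏ x, p (l x)) * ∑ t, G t l * ∏ x, wt κ (t x)
      ≤ ∑ l : X → Fin (r + 1), (∏ x, p (l x)) * (1 / 8) :=
    sum_le_sum fun l _ => mul_le_mul_of_nonneg_left (hcount l) (hP0 l)
  rw [← sum_mul, sum_prod_label p hp1] at h3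
  linarith

end Vale.Agent.H3.P034
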