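import Mathlib

/-! P034 (Talagrand, `q_f ≤ K q`): definitions for the simultaneous selector theorem. -/

namespace Vale.Agent.H3.P034

open Finset

variable {X : Type} [Fintype X] [DecidableEq X] {r : ℕ}

/-- The part of `S` outside `W_i = {x | l x ≤ i}`.  Labels are in `Fin (r+1)`, levels in `Fin r`. -/
def out (S : Finset X) (l : X → Fin (r + 1)) (i : Fin r) : Finset X :=
  S.filter fun x => i.castSucc < l x

/-- Override the labels `l` by the fragment labels `t`. -/
def ov (t : X → Option (Fin r)) (l : X → Fin (r + 1)) : X → Fin (r + 1) := fun x =>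
  (t x).elim (l x) (fun i => i.castSucc)

/-- Number of elements with fragment label `i`. -/
def cnt (t : X → Option (Fin r)) (i : Fin r) : ℕ := (univ.filter fun x => t x = some i).card

/-- Fragment size. -/
def size (t : X → Option (Fin r)) : ℕ := (univ.filter fun x => t x ≠ none).card

/-- Weight of a fragment label. -/
noncomputable def wt (κ : Fin r → ℝ) (o : Option (Fin r)) : ℝ := o.elim 1 (fun i => (κ i)⁻¹)

/-- A family of increasing chains starting at `∅`. -/
structure Chain {J : Type} (h : J → ℕ → Finset X) : Prop where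
  zero : ∀ j, h j 0 = ∅
  mono : ∀ j, Monotone (h j)

/-- The labelling is bad: no member of the family is good on all levels. -/
def Bad {J : Type} (h : J → ℕ → Finset X) (M : ℕ) (ε : Fin r → ℝ) (l : X → Fin (r + 1)) : Prop :=
  ¬ ∃ j, ∀ i : Fin r, ∀ m, 1 ≤ m → m ≤ M → ((out (h j m) l i).card : ℝ) ≤ ε i * (h j m).card

end Vale.Agent.H3.P034
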