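import Mathlib

namespace Vale.Agent.H3.P034

open Finset

variable {X : Type} [Fintype X] [DecidableEq X]

/-- Row E: layer cake.  Proof: induction on `M`: subtract the least positive value `c` of `lam` on its
support `s`; put `h m = h' m` for `m < M`, `h m = s` for `m ≥ M`, `c M = c`. -/
theorem layer (M : ℕ) (lam : X → ℝ) (h0 : ∀ x, 0 ≤ lam x)
    (hM : (univ.filter fun x => 0 < lam x).card ≤ M) :
    ∃ (h : ℕ → Finset X) (c : ℕ → ℝ), h 0 = ∅ ∧ Monotone h ∧ (∀ m, ∀ x ∈ h m, 0 < lam x) ∧
      (∀ m, 0 ≤ c m) ∧ ∀ x, lam x = ∑ m ∈ Icc 1 M, c m * (if x ∈ h m then 1 else 0) := by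
  induction M generalizing lam with
  | zero =>
    refine ⟨fun _ => ∅, fun _ => 0, rfl, fun _ _ _ => le_rfl, ?_, fun _ => le_rfl, ?_⟩
    · intro m x hx
      simp at hx
    · intro x
      have h1 : (univ.filter fun x => 0 < lam x) = ∅ := by
        rw [← Finset.card_eq_zero]; omega
      have h2 : ¬ 0 < lam x := by
        intro hx
        have : x ∈ (univ.filter fun x => 0 < lam x) := by simp [hx]
        rw [h1] at this
        simp at this
      have : lam x = 0 := le_antisymm (not_lt.mp h2) (h0 x)
      simp [this]
  | succ M ih =>
    classical
    set s : Finset X := univ.filter fun x => 0 < lam x with hs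
    by_cases hne : s.Nonempty
    · obtain ⟨x0, hx0, hmin⟩ := Finset.exists_min_image s lam hne
      have hc0 : 0 < lam x0 := by
        have := hx0
        rw [hs] at this
        simpa using this
      let lam' : X → ℝ := fun x => lam x - (if x ∈ s then lam x0 else 0)
      have hmem : ∀ x, x ∈ s ↔ 0 < lam x := by
        intro x; rw [hs]; simp
      have h0' : ∀ x, 0 ≤ lam' x := by
        intro x
        by_cases hx : x ∈ s
        · simp only [lam', hx, if_true]
          have := hmin x hx
          linarith
        · simp only [lam', hx, if_false]
          have := h0 x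
          linarith
      have hle' : ∀ x, 0 < lam' x → x ∈ s.erase x0 := by
        intro x hx
        by_cases hxs : x ∈ s
        · simp only [lam', hxs, if_true] at hx
          refine Finset.mem_erase.mpr ⟨?_, hxs⟩
          rintro rfl
          linarith
        · exfalso
          simp only [lam', hxs, if_false, sub_zero] at hx
          exact hxs ((hmem x).mpr hx)
      have hcard : (univ.filter fun x => 0 < lam' x).card ≤ M := by
        have h1 : (univ.filter fun x => 0 < lam' x) ⊆ s.erase x0 := by
          intro x hx
          exact hle' x (by simpa using hx)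
        have h2 := Finset.card_le_card h1
        rw [Finset.card_erase_of_mem hx0] at h2
        omega
      obtain ⟨h', c', hz, hmono, hpos, hc, hsum⟩ := ih lam' h0' hcard
      have hsub : ∀ m, h' m ⊆ s := fun m x hx =>
        Finset.mem_of_mem_erase (hle' x (hpos m x hx))
      refine ⟨fun m => if m ≤ M then h' m else s, fun m => if m ≤ M then c' m else lam x0,
        ?_, ?_, ?_, ?_, ?_⟩
      · simp [hz]
      · intro a b hab
        by_cases hb : b ≤ M
        · have ha : a ≤ M := le_trans hab hb
          simp only [ha, hb, if_true]
          exact hmono hab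
        · by_cases ha : a ≤ M
          · simp only [ha, hb, if_true, if_false]
            exact hsub a
          · simp only [ha, hb, if_false]
            exact le_rfl
      · intro m x hx
        by_cases hm : m ≤ M
        · simp only [hm, if_true] at hx
          exact (hmem x).mp (hsub m hx)
        · simp only [hm, if_false] at hx
          exact (hmem x).mp hx
      · intro m
        by_cases hm : m ≤ M
        · simp only [hm, if_true]; exact hc m
        · simp only [hm, if_false]; exact hc0.le
      · intro x
        rw [Finset.sum_Icc_succ_top (by omega : 1 ≤ M + 1)]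
        have h1 : ∑ m ∈ Icc 1 M, (if m ≤ M then c' m else lam x0) *
            (if x ∈ (if m ≤ M then h' m else s) then (1 : ℝ) else 0)
            = ∑ m ∈ Icc 1 M, c' m * (if x ∈ h' m then 1 else 0) := by
          refine Finset.sum_congr rfl ?_
          intro m hm
          have hm' : m ≤ M := (Finset.mem_Icc.mp hm).2
          simp only [hm', if_true]
        rw [h1, ← hsum x]
        have h2 : ¬ (M + 1 ≤ M) := by omega
        simp only [h2, if_false, lam']
        by_cases hx : x ∈ s
        · simp [hx]
        · simp [hx]
    · rw [Finset.not_nonempty_iff_eq_empty] at hne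
      refine ⟨fun _ => ∅, fun _ => 0, rfl, fun _ _ _ => le_rfl, ?_, fun _ => le_rfl, ?_⟩
      · intro m x hx
        simp at hx
      · intro x
        have h2 : ¬ 0 < lam x := by
          intro hx
          have : x ∈ s := by rw [hs]; simp [hx]
          rw [hne] at this
          simp at this
        have : lam x = 0 := le_antisymm (not_lt.mp h2) (h0 x)
        simp [this]

end Vale.Agent.H3.P034
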