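import Mathlib

namespace Vale.Agent.H3.P034

open Finset

variable {X : Type} [Fintype X] [DecidableEq X] {r : ℕ}

/-- Row F: first moment.  Proof: the indicator of `∑_{x∈S} l x ≤ |S|` is at most
`∏_{x∈S} 16 * 16^{-l x}`, and the sum over `l` factorises; `∑_i p_i 16^{1-i} ≤ 16*768 q ∑ 2^{-i}`. -/
theorem moment (q : ℝ) (hq : 0 < q) (p : Fin (r + 1) → ℝ) (hp0 : ∀ i, 0 ≤ p i)
    (hp1 : ∑ i, p i = 1) (hp : ∀ i : Fin (r + 1), p i ≤ 768 * 8 ^ (i : ℕ) * q) (S : Finset X) :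
    ∑ l ∈ (univ : Finset (X → Fin (r + 1))).filter (fun l => ∑ x ∈ S, (l x : ℕ) ≤ S.card),
      ∏ x, p (l x) ≤ (24576 * q) ^ S.card := by
  have hone : ∀ l : X → Fin (r + 1), ∑ x ∈ S, (l x : ℕ) ≤ S.card →
      1 ≤ ∏ x ∈ S, (16 * (1 / 16 : ℝ) ^ (l x : ℕ)) := by
    intro l hl
    rw [Finset.prod_mul_distrib, Finset.prod_const, Finset.prod_pow_eq_pow_sum]
    have h1 : (1 / 16 : ℝ) ^ S.card ≤ (1 / 16 : ℝ) ^ (∑ x ∈ S, (l x : ℕ)) :=
      pow_le_pow_of_le_one (by norm_num) (by norm_num) hl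
    have h2 : (16 : ℝ) ^ S.card * (1 / 16 : ℝ) ^ S.card = 1 := by
      rw [← mul_pow]; norm_num
    calc (1 : ℝ) = (16 : ℝ) ^ S.card * (1 / 16 : ℝ) ^ S.card := h2.symm
      _ ≤ _ := mul_le_mul_of_nonneg_left h1 (by positivity)
  have hA : ∑ i : Fin (r + 1), p i * (16 * (1 / 16 : ℝ) ^ (i : ℕ)) ≤ 24576 * q := by
    have h1 : ∀ i : Fin (r + 1), p i * (16 * (1 / 16 : ℝ) ^ (i : ℕ))
        ≤ 12288 * q * (1 / 2 : ℝ) ^ (i : ℕ) := by
      intro i
      have h2 : p i * (16 * (1 / 16 : ℝ) ^ (i : ℕ))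
          ≤ (768 * 8 ^ (i : ℕ) * q) * (16 * (1 / 16 : ℝ) ^ (i : ℕ)) :=
        mul_le_mul_of_nonneg_right (hp i) (by positivity)
      refine h2.trans (le_of_eq ?_)
      have h3 : (8 : ℝ) ^ (i : ℕ) * (1 / 16 : ℝ) ^ (i : ℕ) = (1 / 2 : ℝ) ^ (i : ℕ) := by
        rw [← mul_pow]; norm_num
      rw [← h3]; ring
    have h4 : ∑ i : Fin (r + 1), (1 / 2 : ℝ) ^ (i : ℕ) ≤ 2 := by
      rw [Fin.sum_univ_eq_sum_range (fun i => (1 / 2 : ℝ) ^ i) (r + 1)]
      rw [geom_sum_eq (by norm_num)]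
      have : (0 : ℝ) < (1 / 2) ^ (r + 1) := by positivity
      rw [div_le_iff_of_neg (by norm_num)]
      linarith
    calc _ ≤ ∑ i : Fin (r + 1), 12288 * q * (1 / 2 : ℝ) ^ (i : ℕ) :=
          Finset.sum_le_sum fun i _ => h1 i
      _ = 12288 * q * ∑ i : Fin (r + 1), (1 / 2 : ℝ) ^ (i : ℕ) := by rw [Finset.mul_sum]
      _ ≤ 12288 * q * 2 := mul_le_mul_of_nonneg_left h4 (by positivity)
      _ = _ := by ring
  have hprod0 : ∀ l : X → Fin (r + 1), 0 ≤ ∏ x, p (l x) := fun l =>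
    Finset.prod_nonneg fun x _ => hp0 _
  calc ∑ l ∈ (univ : Finset (X → Fin (r + 1))).filter (fun l => ∑ x ∈ S, (l x : ℕ) ≤ S.card),
      ∏ x, p (l x)
      ≤ ∑ l ∈ (univ : Finset (X → Fin (r + 1))).filter (fun l => ∑ x ∈ S, (l x : ℕ) ≤ S.card),
          (∏ x, p (l x)) * ∏ x ∈ S, (16 * (1 / 16 : ℝ) ^ (l x : ℕ)) := by
        refine Finset.sum_le_sum fun l hl => ?_
        have h1 := hone l (mem_filter.mp hl).2
        have h2 := hprod0 l
        nlinarith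
    _ ≤ ∑ l : X → Fin (r + 1), (∏ x, p (l x)) * ∏ x ∈ S, (16 * (1 / 16 : ℝ) ^ (l x : ℕ)) := by
        refine Finset.sum_le_sum_of_subset_of_nonneg (Finset.filter_subset _ _) fun l _ _ => ?_
        exact mul_nonneg (hprod0 l) (Finset.prod_nonneg fun x _ => by positivity)
    _ = ∑ l : X → Fin (r + 1), ∏ x, (p (l x) *
          (if x ∈ S then 16 * (1 / 16 : ℝ) ^ (l x : ℕ) else 1)) := by
        refine Finset.sum_congr rfl fun l _ => ?_
        have h1 : ∏ x ∈ S, (16 * (1 / 16 : ℝ) ^ (l x : ℕ))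
            = ∏ x, (if x ∈ S then 16 * (1 / 16 : ℝ) ^ (l x : ℕ) else 1) := by
          rw [Finset.prod_ite_mem, Finset.univ_inter]
        rw [h1, ← Finset.prod_mul_distrib]
    _ = ∏ x : X, ∑ i : Fin (r + 1), (p i * (if x ∈ S then 16 * (1 / 16 : ℝ) ^ (i : ℕ) else 1)) := by
        rw [Finset.prod_univ_sum, Fintype.piFinset_univ]
    _ = ∏ x : X, (if x ∈ S then ∑ i : Fin (r + 1), p i * (16 * (1 / 16 : ℝ) ^ (i : ℕ)) else 1) := by
        refine Finset.prod_congr rfl fun x _ => ?_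
        split_ifs
        · rfl
        · simp [hp1]
    _ = (∑ i : Fin (r + 1), p i * (16 * (1 / 16 : ℝ) ^ (i : ℕ))) ^ S.card := by
        rw [Finset.prod_ite_mem, Finset.univ_inter, Finset.prod_const]
    _ ≤ (24576 * q) ^ S.card := by
        refine pow_le_pow_left₀ ?_ hA _
        exact Finset.sum_nonneg fun i _ => mul_nonneg (hp0 i) (by positivity)

/-- Row G: choice of the number of levels and of the label probabilities. -/
theorem exists_p (q : ℝ) (hq : 0 < q) : ∃ r : ℕ, ∃ p : Fin (r + 1) → ℝ, (∀ i, 0 ≤ p i) ∧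
    ∑ i, p i = 1 ∧ (∀ i : Fin r, p i.castSucc = 768 * 8 ^ (i : ℕ) * q) ∧
    ∀ i : Fin (r + 1), p i ≤ 768 * 8 ^ (i : ℕ) * q := by
  set s : ℕ → ℝ := fun n => ∑ i ∈ range n, 768 * 8 ^ i * q with hs
  have hex : ∃ n : ℕ, 1 ≤ s n := by
    obtain ⟨n, hn⟩ := exists_nat_gt (1 / (768 * q))
    refine ⟨n, ?_⟩
    have h1 : ∀ i ∈ range n, 768 * q ≤ 768 * 8 ^ i * q := by
      intro i _
      have : (1 : ℝ) ≤ 8 ^ i := one_le_pow₀ (by norm_num)
      nlinarith
    have h2 := Finset.sum_le_sum h1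
    rw [Finset.sum_const, card_range, nsmul_eq_mul] at h2
    refine le_trans ?_ h2
    rw [div_lt_iff₀ (by positivity)] at hn
    exact hn.le
  classical
  set n := Nat.find hex with hn
  have hn1 : 1 ≤ s n := Nat.find_spec hex
  have hn0 : n ≠ 0 := by
    intro h
    rw [h] at hn1
    simp [hs] at hn1
    linarith
  obtain ⟨r, hr⟩ : ∃ r, n = r + 1 := ⟨n - 1, by omega⟩
  have hr1 : s r < 1 := by
    have := Nat.find_min hex (m := r) (by omega)
    linarith [not_le.mp this]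
  have hr2 : s (r + 1) = s r + 768 * 8 ^ r * q := by
    simp only [hs]; rw [sum_range_succ]
  rw [hr] at hn1
  refine ⟨r, fun i => if (i : ℕ) < r then 768 * 8 ^ (i : ℕ) * q else 1 - s r, ?_, ?_, ?_, ?_⟩
  · intro i
    dsimp only
    split_ifs
    · positivity
    · linarith
  · rw [Fin.sum_univ_castSucc]
    simp only [Fin.val_castSucc, Fin.is_lt, if_true, Fin.val_last, lt_irrefl, if_false]
    rw [Fin.sum_univ_eq_sum_range (fun i => 768 * 8 ^ i * q) r]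
    simp only [hs]; ring
  · intro i
    simp
  · intro i
    dsimp only
    split_ifs with h
    · exact le_refl _
    · have hi : (i : ℕ) = r := by have := i.is_lt; omega
      rw [hi]
      linarith

end Vale.Agent.H3.P034
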