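import Vale.Agent.H3.P034.D
import Vale.Agent.H3.P034.E
import Vale.Agent.H3.P034.F

namespace Vale.Agent.H3.P034

open Finset

variable {X : Type} [Fintype X] [DecidableEq X]

/-- The label of `x` as a sum over levels. -/
theorem label_eq_sum {r : ℕ} (a : Fin (r + 1)) :
    ((a : ℕ) : ℝ) = ∑ i : Fin r, (if i.castSucc < a then (1 : ℝ) else 0) := by
  rw [Finset.sum_boole]
  congr 1
  have h1 : (univ.filter fun i : Fin r => i.castSucc < a).card
      = (Finset.range (a : ℕ)).card := by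
    refine Finset.card_bij (fun i _ => (i : ℕ)) ?_ ?_ ?_
    · intro i hi
      rw [Finset.mem_filter] at hi
      rw [Finset.mem_range]
      exact hi.2
    · intro i _ j _ h
      exact Fin.ext h
    · intro b hb
      rw [Finset.mem_range] at hb
      refine ⟨⟨b, by omega⟩, ?_, rfl⟩
      rw [Finset.mem_filter]
      exact ⟨Finset.mem_univ _, hb⟩
  rw [h1, Finset.card_range]

/-- Layer cake consequence: the mean label under `lam` is at most `∑ ε` times the total mass. -/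
theorem good_mean {r : ℕ} (M : ℕ) (lam : X → ℝ) (h : ℕ → Finset X) (c : ℕ → ℝ)
    (hc : ∀ m, 0 ≤ c m)
    (hlam : ∀ x, lam x = ∑ m ∈ Icc 1 M, c m * (if x ∈ h m then 1 else 0))
    (ε : Fin r → ℝ) (l : X → Fin (r + 1))
    (hgood : ∀ i : Fin r, ∀ m, 1 ≤ m → m ≤ M →
      ((out (h m) l i).card : ℝ) ≤ ε i * (h m).card) :
    ∑ x, lam x * ((l x : ℕ) : ℝ) ≤ (∑ i, ε i) * ∑ x, lam x := by
  have e1 : ∑ x, lam x * ((l x : ℕ) : ℝ)
      = ∑ i : Fin r, ∑ m ∈ Icc 1 M, c m * ((out (h m) l i).card : ℝ) := by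
    have : ∀ x, lam x * ((l x : ℕ) : ℝ)
        = ∑ i : Fin r, ∑ m ∈ Icc 1 M,
          c m * (if x ∈ h m ∧ i.castSucc < l x then (1 : ℝ) else 0) := by
      intro x
      rw [label_eq_sum, hlam x, Finset.mul_sum]
      refine Finset.sum_congr rfl (fun i _ => ?_)
      rw [Finset.sum_mul]
      refine Finset.sum_congr rfl (fun m _ => ?_)
      by_cases h1 : x ∈ h m
      · by_cases h2 : i.castSucc < l x
        · simp [h1, h2]
        · simp [h1, h2]
      · simp [h1]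
    rw [Finset.sum_congr rfl (fun x _ => this x), Finset.sum_comm]
    refine Finset.sum_congr rfl (fun i _ => ?_)
    rw [Finset.sum_comm]
    refine Finset.sum_congr rfl (fun m _ => ?_)
    rw [← Finset.mul_sum, Finset.sum_boole]
    congr 2
    congr 1
    unfold out
    ext x
    simp
  have e2 : ∑ x, lam x = ∑ m ∈ Icc 1 M, c m * ((h m).card : ℝ) := by
    rw [Finset.sum_congr rfl (fun x _ => hlam x), Finset.sum_comm]
    refine Finset.sum_congr rfl (fun m _ => ?_)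
    rw [← Finset.mul_sum, Finset.sum_boole]
    congr 2
    congr 1
    ext x
    simp
  rw [e1, e2, Finset.sum_mul]
  refine Finset.sum_le_sum (fun i _ => ?_)
  rw [Finset.mul_sum]
  refine Finset.sum_le_sum (fun m hm => ?_)
  rw [Finset.mem_Icc] at hm
  have h1 := mul_le_mul_of_nonneg_left (hgood i m hm.1 hm.2) (hc m)
  calc c m * ((out (h m) l i).card : ℝ) ≤ c m * (ε i * (h m).card) := h1
    _ = ε i * (c m * ((h m).card : ℝ)) := by ring

/-- The point weights `∑_{x ∈ S ⊆ H} γ S / |S|`. -/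
noncomputable def lamW (γ : Finset X → ℝ) (H : Finset X) (x : X) : ℝ :=
  ∑ S ∈ H.powerset, (if x ∈ S then γ S / S.card else 0)

omit [Fintype X] in
theorem lamW_nonneg {γ : Finset X → ℝ} (hγ : ∀ S, 0 ≤ γ S) (H : Finset X) (x : X) :
    0 ≤ lamW γ H x := by
  unfold lamW
  refine Finset.sum_nonneg (fun S _ => ?_)
  split_ifs
  · exact div_nonneg (hγ S) (Nat.cast_nonneg _)
  · exact le_refl _

omit [Fintype X] in
theorem mem_of_lamW_pos {γ : Finset X → ℝ} {H : Finset X} {x : X} (h : 0 < lamW γ H x) :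
    x ∈ H := by
  by_contra hx
  have : lamW γ H x = 0 := by
    unfold lamW
    refine Finset.sum_eq_zero (fun S hS => ?_)
    rw [if_neg]
    intro h1
    exact hx (Finset.mem_powerset.mp hS h1)
  linarith

theorem sum_lamW_mul (γ : Finset X → ℝ) (H : Finset X) (g : X → ℝ) :
    ∑ x, lamW γ H x * g x = ∑ S ∈ H.powerset, γ S / S.card * ∑ x ∈ S, g x := by
  unfold lamW
  simp_rw [Finset.sum_mul]
  rw [Finset.sum_comm]
  refine Finset.sum_congr rfl (fun S _ => ?_)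
  rw [Finset.mul_sum]
  rw [← Finset.sum_subset (Finset.subset_univ S)]
  · refine Finset.sum_congr rfl (fun x hx => ?_)
    rw [if_pos hx]
  · intro x _ hx
    rw [if_neg hx, zero_mul]

theorem sum_lamW {γ : Finset X → ℝ} (hγ0 : γ ∅ = 0) (H : Finset X) :
    ∑ x, lamW γ H x = ∑ S ∈ H.powerset, γ S := by
  have h1 := sum_lamW_mul γ H (fun _ => 1)
  simp only [mul_one] at h1
  rw [h1]
  refine Finset.sum_congr rfl (fun S _ => ?_)
  by_cases hS : S = ∅
  · subst hS; simp [hγ0]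
  · have : (S.card : ℝ) ≠ 0 := by
      rw [Nat.cast_ne_zero]
      exact Finset.card_ne_zero.mpr (Finset.nonempty_iff_ne_empty.mpr hS)
    rw [Finset.sum_const, nsmul_eq_mul, mul_one]
    field_simp

/-- Markov: at least half of the mass sits on sets with mean label at most one. -/
theorem good_mass {γ : Finset X → ℝ} (hγ : ∀ S, 0 ≤ γ S) (hγ0 : γ ∅ = 0) {r : ℕ} (H : Finset X)
    (l : X → Fin (r + 1)) {e : ℝ}
    (h : ∑ x, lamW γ H x * ((l x : ℕ) : ℝ) ≤ e * ∑ x, lamW γ H x) (he : e ≤ 1 / 2)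
    (hΦ : 1 ≤ ∑ S ∈ H.powerset, γ S) :
    1 / 2 ≤ ∑ S : Finset X, (if ∑ x ∈ S, (l x : ℕ) ≤ S.card then γ S else 0) := by
  rw [sum_lamW_mul, sum_lamW hγ0] at h
  have h1 : ∀ S ∈ H.powerset, γ S - γ S / S.card * ∑ x ∈ S, ((l x : ℕ) : ℝ)
      ≤ (if ∑ x ∈ S, (l x : ℕ) ≤ S.card then γ S else 0) := by
    intro S _
    have hn : 0 ≤ ∑ x ∈ S, ((l x : ℕ) : ℝ) := Finset.sum_nonneg (fun x _ => Nat.cast_nonneg _)
    split_ifs with h2
    · have : 0 ≤ γ S / S.card * ∑ x ∈ S, ((l x : ℕ) : ℝ) :=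
        mul_nonneg (div_nonneg (hγ S) (Nat.cast_nonneg _)) hn
      linarith
    · rw [not_le] at h2
      by_cases hS : S = ∅
      · subst hS; simp [hγ0]
      · have hc : 0 < (S.card : ℝ) := by
          rw [Nat.cast_pos]
          exact Finset.card_pos.mpr (Finset.nonempty_iff_ne_empty.mpr hS)
        have h3 : (S.card : ℝ) ≤ ∑ x ∈ S, ((l x : ℕ) : ℝ) := by
          rw [← Nat.cast_sum]
          exact_mod_cast h2.le
        have h4 : γ S ≤ γ S / S.card * ∑ x ∈ S, ((l x : ℕ) : ℝ) := by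
          calc γ S = γ S / S.card * S.card := by field_simp
            _ ≤ _ := mul_le_mul_of_nonneg_left h3 (div_nonneg (hγ S) hc.le)
        linarith
  have h2 := Finset.sum_le_sum h1
  rw [Finset.sum_sub_distrib] at h2
  have h3 : ∑ S ∈ H.powerset, (if ∑ x ∈ S, (l x : ℕ) ≤ S.card then γ S else 0)
      ≤ ∑ S : Finset X, (if ∑ x ∈ S, (l x : ℕ) ≤ S.card then γ S else 0) := by
    refine Finset.sum_le_sum_of_subset_of_nonneg (Finset.subset_univ _) (fun S _ _ => ?_)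
    split_ifs
    · exact hγ S
    · exact le_refl _
  have h4 : e * ∑ S ∈ H.powerset, γ S ≤ 1 / 2 * ∑ S ∈ H.powerset, γ S :=
    mul_le_mul_of_nonneg_right he (by linarith)
  linarith

theorem sum_eps (r : ℕ) : ∑ i : Fin r, (1 / 2 ^ ((i : ℕ) + 2) : ℝ) ≤ 1 / 2 := by
  rw [Fin.sum_univ_eq_sum_range (fun i => (1 / 2 ^ (i + 2) : ℝ)) r]
  have h5 : ∀ k : ℕ, ∑ m ∈ range k, (1 / 2 ^ (m + 2) : ℝ) = 1 / 2 - 1 / 2 ^ (k + 1) := by
    intro k
    induction k with
    | zero => norm_num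
    | succ k ih =>
      rw [Finset.sum_range_succ, ih]
      have : (2 : ℝ) ^ (k + 2) = 2 * 2 ^ (k + 1) := by ring
      rw [this]
      have h3 : (2 : ℝ) ^ (k + 1) ≠ 0 := by positivity
      field_simp
      ring
  rw [h5]
  have : (0 : ℝ) < 1 / 2 ^ (r + 1) := by positivity
  linarith

/-- Row H: the main theorem (from D, E, F, G).  `J = {H // H ∈ F}`, `M = card X`,
`lam_H x = ∑_{S ⊆ H, x ∈ S} γ S / |S|`, `h_H` its layer-cake chain, `ε i = 1/2^(i+2)`,
`κ i = 768 * 8^i`.  If `l` is not bad, some `H` has `∑_x lam_H x * (l x : ℕ) ≤ (1/2) Φ(H)`, so by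
Markov `∑_{S} γ S * 1[∑_{x∈S} l x ≤ |S|] ≥ 1/2`; take expectations and use `moment`:
`(1/2) * (3/4) ≤ ∑ γ S (24576 q)^|S|`. -/
theorem main (F : Set (Finset X)) (γ : Finset X → ℝ) (hγ : ∀ S, 0 ≤ γ S) (hγ0 : γ ∅ = 0)
    (hΦ : ∀ H ∈ F, 1 ≤ ∑ S ∈ H.powerset, γ S) (q : ℝ) (hq : 0 < q)
    (hw : ∑ S, γ S * (24576 * q) ^ S.card < 3 / 8) :
    ∃ G : Finset (Finset X), (∀ H ∈ F, ∃ S ∈ G, S ⊆ H) ∧ ∑ S ∈ G, q ^ S.card ≤ 1 / 2 := by
  by_contra hns
  push Not at hns
  obtain ⟨r, p, hp0, hp1, hp2, hp3⟩ := exists_p q hq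
  have hlay : ∀ j : {H // H ∈ F}, ∃ (h : ℕ → Finset X) (c : ℕ → ℝ), h 0 = ∅ ∧ Monotone h ∧
      (∀ m, ∀ x ∈ h m, 0 < lamW γ j.1 x) ∧ (∀ m, 0 ≤ c m) ∧
      ∀ x, lamW γ j.1 x = ∑ m ∈ Icc 1 (Fintype.card X), c m * (if x ∈ h m then 1 else 0) :=
    fun j => layer (Fintype.card X) (lamW γ j.1) (lamW_nonneg hγ j.1) (Finset.card_le_univ _)
  choose h c hz hmono hpos hc hl using hlay
  have hsel := selector (X := X) (r := r) h ⟨hz, hmono⟩ (Fintype.card X) q hq
    (fun i => 1 / 2 ^ ((i : ℕ) + 2)) (fun i => 768 * 8 ^ (i : ℕ))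
    (fun i => by positivity) (fun i => by positivity)
    (fun i => by
      have h8 : (8 : ℝ) ^ (i : ℕ) = 2 ^ (i : ℕ) * 4 ^ (i : ℕ) := by
        rw [← mul_pow]; norm_num
      rw [h8, pow_add]
      have : (2 : ℝ) ^ (i : ℕ) ≠ 0 := by positivity
      refine le_of_eq ?_
      field_simp
      ring)
    p hp0 hp1 hp2
    (fun G hG => hns G (fun H hH => by
      obtain ⟨S, hS, hSh⟩ := hG ⟨H, hH⟩
      exact ⟨S, hS, fun x hx => mem_of_lamW_pos (hpos ⟨H, hH⟩ _ x (hSh hx))⟩))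
  set P : (X → Fin (r + 1)) → ℝ := fun l => ∏ x, p (l x) with hP
  have hP0 : ∀ l, 0 ≤ P l := fun l => Finset.prod_nonneg (fun x _ => hp0 _)
  have hPsum : ∑ l, P l = 1 := by
    have h1 := Finset.prod_univ_sum (fun _ : X => (univ : Finset (Fin (r + 1))))
      (fun _ a => p a)
    rw [hp1, Finset.prod_const_one, Fintype.piFinset_univ] at h1
    exact h1.symm
  set Y : (X → Fin (r + 1)) → ℝ := fun l =>
    ∑ S : Finset X, (if ∑ x ∈ S, (l x : ℕ) ≤ S.card then γ S else 0) with hY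
  have hY0 : ∀ l, 0 ≤ Y l := fun l => Finset.sum_nonneg (fun S _ => by
    split_ifs
    · exact hγ S
    · exact le_refl _)
  have hgood : ∀ l, ¬ Bad h (Fintype.card X) (fun i : Fin r => 1 / 2 ^ ((i : ℕ) + 2)) l →
      1 / 2 ≤ Y l := by
    intro l hl'
    unfold Bad at hl'
    rw [not_not] at hl'
    obtain ⟨j, hj⟩ := hl'
    exact good_mass hγ hγ0 j.1 l
      (good_mean (Fintype.card X) (lamW γ j.1) (h j) (c j) (hc j) (hl j)
        (fun i : Fin r => 1 / 2 ^ ((i : ℕ) + 2)) l hj) (sum_eps r) (hΦ j.1 j.2)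
  have hEY : ∑ l, P l * Y l < 3 / 8 := by
    refine lt_of_le_of_lt ?_ hw
    have e1 : ∑ l, P l * Y l = ∑ S : Finset X, γ S *
        ∑ l ∈ (univ : Finset (X → Fin (r + 1))).filter (fun l => ∑ x ∈ S, (l x : ℕ) ≤ S.card),
          P l := by
      simp only [hY]
      simp_rw [Finset.mul_sum]
      rw [Finset.sum_comm]
      refine Finset.sum_congr rfl (fun S _ => ?_)
      rw [Finset.sum_filter]
      refine Finset.sum_congr rfl (fun l _ => ?_)
      split_ifs
      · ring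
      · ring
    rw [e1]
    exact Finset.sum_le_sum (fun S _ =>
      mul_le_mul_of_nonneg_left (moment q hq p hp0 hp1 hp3 S) (hγ S))
  classical
  have hsplit := Finset.sum_filter_add_sum_filter_not (univ : Finset (X → Fin (r + 1)))
    (fun l => Bad h (Fintype.card X) (fun i : Fin r => 1 / 2 ^ ((i : ℕ) + 2)) l) P
  rw [hPsum] at hsplit
  have hlow : 1 / 2 * ∑ l ∈ (univ : Finset (X → Fin (r + 1))).filter
      (fun l => ¬ Bad h (Fintype.card X) (fun i : Fin r => 1 / 2 ^ ((i : ℕ) + 2)) l), P l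
      ≤ ∑ l, P l * Y l := by
    rw [Finset.mul_sum]
    refine le_trans (Finset.sum_le_sum (fun l hl' => ?_))
      (Finset.sum_le_sum_of_subset_of_nonneg (Finset.subset_univ _)
        (fun l _ _ => mul_nonneg (hP0 l) (hY0 l)))
    rw [Finset.mem_filter] at hl'
    have := mul_le_mul_of_nonneg_left (hgood l hl'.2) (hP0 l)
    linarith
  have hsel' : ∑ l ∈ (univ : Finset (X → Fin (r + 1))).filter
      (fun l => Bad h (Fintype.card X) (fun i : Fin r => 1 / 2 ^ ((i : ℕ) + 2)) l), P l ≤ 1 / 4 := by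
    convert hsel using 2
  linarith

end Vale.Agent.H3.P034
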